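import Mathlib
import Vale.Agent.Lib.P065.Defs
import Vale.Agent.Lib.P065.KDefs
import Vale.Agent.Lib.P065.KInj

namespace Vale.Agent.Results.P065.KSetLayerBound

open Vale.Agent.Lib.P065

/-- `k`-sets of a planar point set whose points are arranged in `L` layers so that every
point is a vertex of the convex hull of the points of its own and later layers (for instance
the `L` convex layers of `P`): `e_k(P) ≤ 2 ∑_q (L - layer q) - n ≤ (2L - 1) n` for every
`1 ≤ k ≤ n - 1`. -/
theorem result (P : Finset (ℝ × ℝ)) (hP : NoThreeCollinear P)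
    (L : ℕ) (layer : ℝ × ℝ → ℕ) (hL : ∀ q ∈ P, layer q < L)
    (hlayer : ∀ q ∈ P,
      q ∉ convexHull ℝ {p : ℝ × ℝ | p ∈ P ∧ p ≠ q ∧ layer q ≤ layer p})
    (k : ℕ) (hk1 : 1 ≤ k) (hk2 : k < P.card) :
    (kSets P k).card + P.card ≤ 2 * ∑ q ∈ P, (L - layer q) ∧
      (kSets P k).card + P.card ≤ 2 * L * P.card := by
  have h := kset_layer_bound P hP L layer hL hlayer k hk1 hk2
  refine ⟨h, h.trans ?_⟩
  have : ∑ q ∈ P, (L - layer q) ≤ ∑ _q ∈ P, L :=
    Finset.sum_le_sum (fun q _ => Nat.sub_le L (layer q))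
  rw [Finset.sum_const, smul_eq_mul] at this
  calc 2 * ∑ q ∈ P, (L - layer q) ≤ 2 * (P.card * L) := Nat.mul_le_mul_left 2 this
    _ = 2 * L * P.card := by ring

end Vale.Agent.Results.P065.KSetLayerBound
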