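import Mathlib
import Vale.Agent.Lib.P065.Defs
import Vale.Agent.Lib.P065.Global
import Vale.Agent.Lib.P065.KDefs
import Vale.Agent.Lib.P065.KInj
import Vale.Agent.Lib.P065.SharpMain

namespace Vale.Agent.Results.P065.LayersOmnibus

open Vale.Agent.Lib.P065

/-- Halving lines and `k`-sets of planar point sets arranged in `L` layers so that every point
is a vertex of the convex hull of the points of its own and later layers (for instance the `L`
convex layers of `P`), in one statement.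

(1) Halving lines, `n` even: `2 h(P) + n ≤ 2 ∑_q (L - layer q) ≤ 2 L n`.

(2) `k`-sets, `1 ≤ k ≤ n - 1`: `e_k(P) + n ≤ 2 ∑_q (L - layer q) ≤ 2 L n`.

(3) Sharpness for two layers: for every `m ≥ 3` there is such a set with `L = 2`,
`n = m (m - 1)` points, `m` of them in layer `1`, and equality in (1), i.e.
`h(P) = 3 n / 2 - m`. -/
theorem result :
    (∀ (P : Finset (ℝ × ℝ)), NoThreeCollinear P → Even P.card →
      ∀ (L : ℕ) (layer : ℝ × ℝ → ℕ), (∀ q ∈ P, layer q < L) →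
      (∀ q ∈ P, q ∉ convexHull ℝ {p : ℝ × ℝ | p ∈ P ∧ p ≠ q ∧ layer q ≤ layer p}) →
      2 * (halvingEdges P).card + P.card ≤ 2 * ∑ q ∈ P, (L - layer q) ∧
        2 * (halvingEdges P).card + P.card ≤ 2 * L * P.card) ∧
    (∀ (P : Finset (ℝ × ℝ)), NoThreeCollinear P →
      ∀ (L : ℕ) (layer : ℝ × ℝ → ℕ), (∀ q ∈ P, layer q < L) →
      (∀ q ∈ P, q ∉ convexHull ℝ {p : ℝ × ℝ | p ∈ P ∧ p ≠ q ∧ layer q ≤ layer p}) →
      ∀ k : ℕ, 1 ≤ k → k < P.card →
      (kSets P k).card + P.card ≤ 2 * ∑ q ∈ P, (L - layer q) ∧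
        (kSets P k).card + P.card ≤ 2 * L * P.card) ∧
    (∀ m : ℕ, 3 ≤ m → ∃ (P : Finset (ℝ × ℝ)) (layer : ℝ × ℝ → ℕ),
      NoThreeCollinear P ∧ P.card = m * (m - 1) ∧
      (∀ q ∈ P, layer q < 2) ∧
      (P.filter (fun q => layer q = 1)).card = m ∧
      (∀ q ∈ P, q ∉ convexHull ℝ {p : ℝ × ℝ | p ∈ P ∧ p ≠ q ∧ layer q ≤ layer p}) ∧
      2 * (halvingEdges P).card + P.card = 2 * ∑ q ∈ P, (2 - layer q) ∧
      2 * (halvingEdges P).card + 2 * m = 3 * P.card) := by
  have key : ∀ (P : Finset (ℝ × ℝ)) (L : ℕ) (layer : ℝ × ℝ → ℕ),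
      2 * ∑ q ∈ P, (L - layer q) ≤ 2 * L * P.card := by
    intro P L layer
    have : ∑ q ∈ P, (L - layer q) ≤ ∑ _q ∈ P, L :=
      Finset.sum_le_sum (fun q _ => Nat.sub_le L (layer q))
    rw [Finset.sum_const, smul_eq_mul] at this
    calc 2 * ∑ q ∈ P, (L - layer q) ≤ 2 * (P.card * L) := Nat.mul_le_mul_left 2 this
      _ = 2 * L * P.card := by ring
  refine ⟨?_, ?_, ?_⟩
  · intro P hP _heven L layer hL hlayer
    have h := layer_bound P hP L layer hL hlayer
    exact ⟨h, h.trans (key P L layer)⟩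
  · intro P hP L layer hL hlayer k hk1 hk2
    have h := kset_layer_bound P hP L layer hL hlayer k hk1 hk2
    exact ⟨h, h.trans (key P L layer)⟩
  · intro m hm
    exact ⟨sharpCfg m, sharpLayer m, sharp_summary m hm⟩

end Vale.Agent.Results.P065.LayersOmnibus
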