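import Mathlib
import Vale.Agent.Lib.P065.Defs
import Vale.Agent.Lib.P065.SharpMain

namespace Vale.Agent.Results.P065.TwoLayerSharp

open Vale.Agent.Lib.P065

/-- Sharpness of the two-layer halving-line bound. For every `m ≥ 3` there is a planar set
`P` of `n = m (m - 1)` points, no three collinear, lying on two convex layers (the `m`
points of layer `1` are vertices of their own convex hull, the `m (m - 2)` points of layer
`0` are vertices of the convex hull of `P`), with exactly `h(P) = 3 n / 2 - m` halving
lines. This is equality in the bound `2 h(P) + n ≤ 2 ∑_q (2 - layer q)` for two-layer sets,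
and shows that the constant `3 / 2` in `h(P) ≤ (3 / 2) n` for two-layer sets is optimal. -/
theorem result (m : ℕ) (hm : 3 ≤ m) :
    ∃ (P : Finset (ℝ × ℝ)) (layer : ℝ × ℝ → ℕ),
      NoThreeCollinear P ∧ P.card = m * (m - 1) ∧
      (∀ q ∈ P, layer q < 2) ∧
      (P.filter (fun q => layer q = 1)).card = m ∧
      (∀ q ∈ P, q ∉ convexHull ℝ {p : ℝ × ℝ | p ∈ P ∧ p ≠ q ∧ layer q ≤ layer p}) ∧
      2 * (halvingEdges P).card + P.card = 2 * ∑ q ∈ P, (2 - layer q) ∧
      2 * (halvingEdges P).card + 2 * m = 3 * P.card :=
  ⟨sharpCfg m, sharpLayer m, sharp_summary m hm⟩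

end Vale.Agent.Results.P065.TwoLayerSharp
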